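/-
Helper31 — S0175 project, package G1: the pointwise inequality and its equality case on the model
space `MS k` (statements verbatim from `Crest.Agent.Helper32.Spec`: `pointwise_ineq`,
`pointwise_eq`, `pointwise_contact`), as an adapter from the model-free
`Crest.Agent.Helper31.Riesz.Pointwise` applied to `E = WithLp 2 (MS k)`, `τ = w²`, `δ = 1`.
-/
import Mathlib
import Crest.Agent.Helper32.GeomDefs
import Crest.Agent.Helper31.Riesz.Contact

set_option autoImplicit false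
open MeasureTheory Set
open scoped ENNReal
open Crest.AnalysisR.OT
open Crest.Agent.Helper32

namespace Crest.Agent.Helper31

/-! ### The adapter: `MS k` with its Euclidean distance is `WithLp 2 (MS k)` -/

section Adapter
variable {k : ℕ}

/-- plane part of a point of the `L²` model space -/
def pPl (e : WithLp 2 (MS k)) : ℂ := (WithLp.ofLp e).1

/-- rest part of a point of the `L²` model space -/
def pRe (e : WithLp 2 (MS k)) : EuclideanSpace ℝ (Fin k) := (WithLp.ofLp e).2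

theorem split_ME : Riesz.Split (pPl (k := k)) (pRe (k := k)) := by
  intro x y
  rw [WithLp.prod_norm_sq_eq_of_L2]
  rfl

theorem dM_eq_norm (p q : MS k) : dM p q = ‖WithLp.toLp 2 p - WithLp.toLp 2 q‖ := by
  rw [WithLp.prod_norm_eq_of_L2]
  rfl

theorem dM_nonneg (p q : MS k) : 0 ≤ dM p q := Real.sqrt_nonneg _

theorem pairCostM_eq (s : ℝ) (p q : MS k) :
    pairCostM s p q = pairCost s (WithLp.toLp 2 p) (WithLp.toLp 2 q) := by
  unfold pairCostM pairCost
  rw [dM_eq_norm]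

theorem tripleCostM_eq (s : ℝ) (x y z : MS k) :
    tripleCostM s (x, y, z)
      = tripleCost s (WithLp.toLp 2 x, WithLp.toLp 2 y, WithLp.toLp 2 z) := by
  unfold tripleCostM tripleCost
  simp only [pairCostM_eq]

theorem u1_eq (s w : ℝ) (hw : 0 < w) (x : MS k) :
    u1 s w x = Riesz.uA (pPl (k := k)) (pRe (k := k)) s 1 (w ^ 2) (WithLp.toLp 2 x) := by
  have e1 : (w ^ 2) ^ (s / (s + 2)) = w ^ (2 * s / (s + 2)) := by
    rw [← Real.rpow_natCast, ← Real.rpow_mul hw.le]
    congr 1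
    push_cast
    ring
  unfold u1 Riesz.uA Riesz.Kc shG shP pPl pRe
  rw [e1]
  dsimp only
  generalize (1 - 2 * w ^ 2) ^ (s / (s + 2)) = A
  generalize w ^ (2 * s / (s + 2)) = B
  field_simp
  ring

theorem UB_eq (s : ℝ) (y : MS k) :
    UB s y = Riesz.uB (pPl (k := k)) (pRe (k := k)) s 1 (WithLp.toLp 2 y) := by
  unfold UB Riesz.uB pPl pRe
  norm_num

theorem shL12_nonneg (s w : ℝ) (hw' : 2 * w ^ 2 < 1) : 0 ≤ shL12 s w :=
  Real.rpow_nonneg (by unfold shP; linarith) _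

theorem shL23_nonneg (s w : ℝ) (hw : 0 < w) : 0 ≤ shL23 s w := Real.rpow_nonneg hw.le _

theorem shL12_sq (s w : ℝ) (hw' : 2 * w ^ 2 < 1) :
    shL12 s w ^ 2 = (1 - 2 * w ^ 2) ^ (-(2 / (s + 2))) := by
  unfold shL12 shP
  rw [← Real.rpow_natCast, ← Real.rpow_mul (by linarith)]
  congr 1
  push_cast
  ring

theorem shL23_sq (s w : ℝ) (hw : 0 < w) : shL23 s w ^ 2 = (w ^ 2) ^ (-(2 / (s + 2))) := by
  unfold shL23
  rw [← Real.rpow_natCast, ← Real.rpow_natCast, ← Real.rpow_mul hw.le, ← Real.rpow_mul hw.le]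
  congr 1
  push_cast
  ring

theorem shL12_rpow (s w : ℝ) (hw' : 2 * w ^ 2 < 1) (hs : 0 < s) :
    shL12 s w ^ (-s) = (shP w) ^ (s / (s + 2)) := by
  unfold shL12
  rw [← Real.rpow_mul (by unfold shP; linarith)]
  congr 1
  have : s + 2 ≠ 0 := by linarith
  field_simp

theorem shL23_rpow (s w : ℝ) (hw : 0 < w) (hs : 0 < s) :
    shL23 s w ^ (-s) = w ^ (2 * s / (s + 2)) := by
  unfold shL23
  rw [← Real.rpow_mul hw.le]
  congr 1
  have : s + 2 ≠ 0 := by linarith
  field_simp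

/-- the equality conditions of the model-free theorem, in the model -/
theorem eqCond_iff (s w : ℝ) (hw : 0 < w) (hw' : 2 * w ^ 2 < 1) (x y z : MS k) :
    Riesz.EqCond (pPl (k := k)) (pRe (k := k)) s 1 (w ^ 2) (WithLp.toLp 2 x) (WithLp.toLp 2 y)
        (WithLp.toLp 2 z) ↔
      (dM x y = shL12 s w ∧ dM x z = shL12 s w ∧ dM y z = shL23 s w ∧
        ((shP w / w : ℝ) : ℂ) * x.1 + (w : ℂ) * (y.1 + z.1) = 0 ∧
        y.2 = -(shC w) • x.2 ∧ z.2 = -(shC w) • x.2) := by
  have hw0 : (w : ℂ) ≠ 0 := Complex.ofReal_ne_zero.mpr hw.ne'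
  have hplane : (y.1 + z.1 = -((1 - 2 * w ^ 2) / w ^ 2) • x.1) ↔
      ((shP w / w : ℝ) : ℂ) * x.1 + (w : ℂ) * (y.1 + z.1) = 0 := by
    unfold shP
    rw [Complex.real_smul]
    push_cast
    constructor
    · intro h
      rw [h]
      field_simp
      ring
    · intro h
      field_simp
      field_simp at h
      linear_combination h
  constructor
  · intro hc
    obtain ⟨hyR, hzR⟩ := Riesz.rest_of_eqCond one_pos hc
    refine ⟨?_, ?_, ?_, hplane.mp hc.plane, hyR, hzR⟩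
    · rw [← sq_eq_sq₀ (dM_nonneg x y) (shL12_nonneg s w hw'), shL12_sq s w hw', dM_eq_norm]
      exact hc.dxy
    · rw [← sq_eq_sq₀ (dM_nonneg x z) (shL12_nonneg s w hw'), shL12_sq s w hw', dM_eq_norm]
      exact hc.dxz
    · rw [← sq_eq_sq₀ (dM_nonneg y z) (shL23_nonneg s w hw), shL23_sq s w hw, dM_eq_norm]
      exact hc.dyz
  · rintro ⟨h1, h2, h3, h4, h5, h6⟩
    refine ⟨?_, ?_, ?_, hplane.mpr h4, ?_, fun _ => ?_⟩
    · rw [← dM_eq_norm, h1, shL12_sq s w hw']
    · rw [← dM_eq_norm, h2, shL12_sq s w hw']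
    · rw [← dM_eq_norm, h3, shL23_sq s w hw]
    · show y.2 + z.2 = -(2 * (1 - 2 * w ^ 2) / (2 * w ^ 2 + 1)) • x.2
      rw [h5, h6, ← add_smul]
      congr 1
      unfold shC shP
      ring
    · show y.2 = z.2
      rw [h5, h6]

end Adapter

/-! ### G1 : the pointwise inequality and its equality case (Spec-verbatim) -/

section G1
variable {k : ℕ} (s : ℝ) (hs : 0 < s) (w : ℝ) (hw : 0 < w) (hw' : 2 * w ^ 2 < 1) (x y z : MS k)
include hs hw hw'

theorem pointwise_ineq :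
    ENNReal.ofReal (u1 s w x + UB s y + UB s z) ≤ tripleCostM s (x, y, z) := by
  rw [tripleCostM_eq, u1_eq s w hw, UB_eq, UB_eq]
  exact Riesz.pointwise_le split_ME hs (by positivity) (by linarith) zero_le_one _ _ _

theorem pointwise_eq
    (h : tripleCostM s (x, y, z) ≤ ENNReal.ofReal (u1 s w x + UB s y + UB s z)) :
    dM x y = shL12 s w ∧ dM x z = shL12 s w ∧ dM y z = shL23 s w ∧
      ((shP w / w : ℝ) : ℂ) * x.1 + (w : ℂ) * (y.1 + z.1) = 0 ∧
      y.2 = -(shC w) • x.2 ∧ z.2 = -(shC w) • x.2 := by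
  rw [tripleCostM_eq, u1_eq s w hw, UB_eq, UB_eq] at h
  exact (eqCond_iff s w hw hw' x y z).mp
    (Riesz.eq_case split_ME hs (by positivity) (by linarith) zero_le_one h).2

theorem pointwise_contact (h1 : dM x y = shL12 s w) (h2 : dM x z = shL12 s w)
    (h3 : dM y z = shL23 s w)
    (h4 : ((shP w / w : ℝ) : ℂ) * x.1 + (w : ℂ) * (y.1 + z.1) = 0)
    (h5 : y.2 = -(shC w) • x.2) (h6 : z.2 = -(shC w) • x.2) :
    u1 s w x + UB s y + UB s z = shG s w ∧
      tripleCostM s (x, y, z) = ENNReal.ofReal (u1 s w x + UB s y + UB s z) := by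
  have hc := (eqCond_iff s w hw hw' x y z).mpr ⟨h1, h2, h3, h4, h5, h6⟩
  have hR : pRe (WithLp.toLp 2 y) = pRe (WithLp.toLp 2 z) := by
    show y.2 = z.2
    rw [h5, h6]
  have hτ : (0 : ℝ) < w ^ 2 := by positivity
  have hτ' : w ^ 2 < 1 / 2 := by linarith
  constructor
  · rw [u1_eq s w hw, UB_eq, UB_eq,
      Riesz.eq_of_cond_real split_ME hs hτ hτ' zero_le_one hc hR, ← dM_eq_norm, ← dM_eq_norm,
      ← dM_eq_norm, h1, h2, h3, shL12_rpow s w hw' hs, shL23_rpow s w hw hs]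
    unfold shG
    ring
  · rw [tripleCostM_eq, u1_eq s w hw, UB_eq, UB_eq]
    exact Riesz.eq_of_cond split_ME hs hτ hτ' zero_le_one hc hR

end G1

end Crest.Agent.Helper31
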